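import Vale.Agent.P032.Words.H151.Pal4
import Vale.Agent.P032.Words6.H503.Mark

/-!
# P032: a box table with ties and words which accumulate: the contradiction in numbers
-/

open Set Filter Topology

noncomputable section

namespace Vale.Agent.P032.Words6.H571

open Vale.Agent.P032.Words.Trie Vale.Agent.P032.Words Vale.Agent.P032.Words6.H503

theorem num_false {D : Dat} (hB : BoxTab D)
    (htie : (D.tie.all fun m => Nat.blt m (2 ^ D.r)) = true) {W : Type} {H : ℝ → W → Prop} {rot : W → W}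
    (dense : ∀ u, ∃ᶠ v in 𝓝 u, ∃ h, H v h)
    (hrot : ∀ v h, H v h → H (v + 1) (rot h))
    {hn : W → ℕ → ℕ} (hnr : ∀ h, ∀ k < 6, hn (rot h) k = hn h ((k + 1) % 6))
    (leg : ∀ v h, H v h → Leg6 D.A D.nb D.op (hn h))
    {tn : ℝ → ℕ → ℕ} (alw : ∀ u, Alw D (tn u))
    {B : ℝ → W → Prop} (near : ∀ u, ∀ᶠ v in 𝓝 u, ∀ h, H v h → B u h)
    (bleg : ∀ u h, B u h → Leg6 D.A D.nb D.op (hn h))
    (blw : ∀ u h, B u h → Blw D (tn u) (hn h))
    (tie1 : ∀ c < D.r, ∀ u u', (ties D (tn u)).testBit c = true →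
      (ties D (tn u')).testBit c = true → ∃ n : ℤ, u' = u + n)
    (gen : ∀ c < D.r, ∀ v h, H v h → (ties D (tn v)).testBit c = false) : False := by
  obtain ⟨-, -, cmp, R, hR0, hR1, hR2⟩ := hB
  have htl : ∀ u, ties D (tn u) < 2 ^ D.r := fun u => tmk_lt htie _
  refine mark_false (κ := Fin D.r) dense hrot
    (Tie := fun c u => (ties D (tn u)).testBit c.val = true)
    (fun c u u' h1 h2 => tie1 c.val c.isLt u u' h1 h2)
    (fun v h c hv => by rw [gen c.val c.isLt v h hv]; exact Bool.false_ne_true) near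
    (φ := fun h g S => ∃ s : ℕ, s < 2 ^ D.r ∧ (∀ c : Fin D.r, s.testBit c.val = true → c ∈ S) ∧
      R (cmp (hn h)) s (cmp (hn g))) ?_ ?_ ?_ ?_
  · intro v h hv
    exact ⟨0, Nat.two_pow_pos _, fun c hc => by simp at hc, hR0 _ (leg v h hv)⟩
  · rintro h g S S' hS ⟨s, h1, h2, h3⟩
    exact ⟨s, h1, fun c hc => hS (h2 c hc), h3⟩
  · rintro u g g' hg hg' h S hS ⟨s, h1, h2, h3⟩
    refine ⟨Nat.lor s (ties D (tn u)), Nat.or_lt_two_pow h1 (htl u), ?_, ?_⟩
    · intro c hc
      have hc' : (s ||| ties D (tn u)).testBit c.val = true := hc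
      rw [Nat.testBit_or, Bool.or_eq_true] at hc'
      rcases hc' with hc' | hc'
      · exact Or.inl (h2 c hc')
      · exact Or.inr hc'
    · refine hR1 (tn u) (hn g) (hn g') _ s (alw u) (bleg u g hg) (bleg u g' hg') (blw u g hg)
        (blw u g' hg') h1 ?_ h3
      show s &&& ties D (tn u) = 0
      apply Nat.eq_of_testBit_eq
      intro i
      rw [Nat.testBit_and, Nat.zero_testBit]
      by_cases hi : i < D.r
      · cases hs : s.testBit i with
        | false => rfl
        | true =>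
          have := hS ⟨i, hi⟩ (h2 ⟨i, hi⟩ hs)
          rw [Bool.true_and]
          cases ht : (ties D (tn u)).testBit i with
          | false => rfl
          | true => exact absurd ht this
      · have : s.testBit i = false :=
          Nat.testBit_lt_two_pow (lt_of_lt_of_le h1 (Nat.pow_le_pow_right (by norm_num) (by omega)))
        rw [this, Bool.false_and]
  · rintro v h S hv ⟨s, h1, -, h3⟩
    exact hR2 (hn h) (hn (rot h)) s (leg v h hv) (leg (v + 1) _ (hrot v h hv)) (hnr h) h1 h3

end Vale.Agent.P032.Words6.H571
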