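import Vale.Agent.P032.Words6.H571.LeafM
import Vale.Agent.P032.Words6.H571.Num
import Vale.Agent.P032.Words6.H46.Enc2
import Vale.Agent.P032.Words6.H343.SysOf

/-!
# P032: a leaf of a mode tree: the contradiction over the circle
-/

open Set Filter Topology Metric

noncomputable section

namespace Vale.Agent.P032.Words6.H571

open Vale.Agent.P032.Six Vale.Agent.P032.S5.H767 Vale.Agent.P032.Words6.H704
  Vale.Agent.P032.Words6.H46 Vale.Agent.P032.Words6.H343 Vale.Agent.P032.Words6.H503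
  Vale.Agent.P032.Words6.H220 Vale.Agent.P032.Words.Trie

variable {U : Fin 6 → Set ℂ} {T : ℂ → Set (Fin 6)} {z : ℂ}
  {H : ℝ → (Fin 6 → Set (Fin 6)) → Prop}

/-- the palettes with a common tie bit are equal -/
theorem tcode_uniq {D : Dat} {f : Fin 6 → ℕ} {M : Fin 6 → Fin 6 → Prop} (O : OkS D)
    (E : Enc D f M) (hlen : D.tie.length ≤ D.P.length) {X Y : Set (Fin 6)} {c : ℕ}
    (hX : (tcode D (code f X)).testBit c = true) (hY : (tcode D (code f Y)).testBit c = true) :
    X = Y := by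
  have key : ∀ {X : Set (Fin 6)}, (tcode D (code f X)).testBit c = true → code f X ∈ D.P := by
    intro X hX
    by_contra hcon
    have h1 : D.P.idxOf (code f X) = D.P.length := List.idxOf_eq_length hcon
    unfold tcode at hX
    rw [h1, List.getD_eq_default _ _ hlen] at hX
    simp at hX
  have k1 := idx_spec (key hX)
  have k2 := idx_spec (key hY)
  rw [O.lenP] at k1 k2
  by_contra hne
  have h2 : D.P.idxOf (code f X) ≠ D.P.idxOf (code f Y) := by
    intro h3
    apply hne
    apply code_inj E.inj E.lt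
    rw [← k1.2, ← k2.2, h3]
  have h3 := (O.ne _ k1.1 _ k2.1 h2).2
  unfold tcode at hX hY
  have h4 : (Nat.land (D.tie.getD (D.P.idxOf (code f X)) 0)
      (D.tie.getD (D.P.idxOf (code f Y)) 0)).testBit c = true := by
    have : (Nat.land (D.tie.getD (D.P.idxOf (code f X)) 0)
      (D.tie.getD (D.P.idxOf (code f Y)) 0)).testBit c =
        ((D.tie.getD (D.P.idxOf (code f X)) 0).testBit c &&
          (D.tie.getD (D.P.idxOf (code f Y)) 0).testBit c) := Nat.testBit_and _ _ _
    rw [this, hX, hY, Bool.and_self]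
  rw [h3, Nat.zero_testBit] at h4
  exact absurd h4 Bool.false_ne_true

/-- **A leaf.** -/
theorem leaf_core (C : Six6 U T z)
    (hact : ∀ i, ∃ q, dist q z = 1 ∧ i ∈ T q ∧ (T q).ncard = 2) (S : SelH T z H)
    {M : Fin 6 → Fin 6 → Prop} (hleg : ∀ v h, H v h → Leg M h)
    (hrot : ∀ v h, H v h → H (v + 1) (fun k => h (k + 1)))
    {D : Dat} (hB : BoxTab D) (hok : okD D = true) {f : Fin 6 → ℕ} (E : Enc D f M)
    {l : List (ℕ × Fin 3)} (hl : okL D l = true) (hm : ∀ p ∈ l, ModeP T z f p.1 p.2) : False := by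
  have O := okS hok
  have hlen : D.tie.length ≤ D.P.length := by
    have h1 := hl
    unfold okL at h1
    simp only [Bool.and_eq_true] at h1
    exact Nat.le_of_ble_eq_true h1.1.1.1
  have hT : ∀ X : Set (Fin 6), tcode D (code f X) ≠ 0 → X.ncard = 3 ∧ TieP T z X :=
    fun X hX => okL_tieP E.inj E.lt hl hm hX
  have hsys : ∀ u, Sys M (Acc H u) (Lam H u) := fun u => sys_of C S hact hleg u
  have hmd : ∀ u, Md D f (Lam H u) := fun u =>
    md_of C S hact hleg (fun X h3 hX => okL_mem E hl hm h3 hX) hT u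
  have hne : ∀ {X : Set (Fin 6)} {c : ℕ}, (tcode D (code f X)).testBit c = true →
      tcode D (code f X) ≠ 0 := by
    intro X c hX h0
    rw [h0, Nat.zero_testBit] at hX
    exact absurd hX Bool.false_ne_true
  have hpt : ∀ {u : ℝ} {k : Fin 6} {c : ℕ}, (tcode D (code f (Lam H u k))).testBit c = true →
      Lam H u k = T (pt z (u + (k.val : ℝ))) := by
    intro u k c hX
    exact S.lam_eq C (hT _ (hne hX)).1
  refine num_false (W := Fin 6 → Set (Fin 6)) hB (okL_tie hl) S.dense hrot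
    (hn := wd D f) (fun h k hk => wd_rot k hk) (fun v h hv => enc_word hok E (hleg v h hv))
    (tn := fun u => td D f (Lam H u)) (fun u => enc_tuple hok E (hsys u) (hmd u))
    (B := Acc H) (acc_near H) (fun u h hh => enc_word hok E ((hsys u).leg h hh))
    (fun u h hh => enc_blw hok E (hsys u) (hmd u) hh) ?_ ?_
  · intro c _ u u' h1 h2
    obtain ⟨k, hk⟩ := ties_bit.1 h1
    obtain ⟨k', hk'⟩ := ties_bit.1 h2
    have e := tcode_uniq O E hlen hk hk'
    obtain ⟨-, y, -, hy, -⟩ := hT _ (hne hk)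
    have e1 := (hy _ (dist_pt z _)).1 (hpt hk).symm
    have e2 := (hy _ (dist_pt z _)).1 ((hpt hk').symm.trans e.symm)
    obtain ⟨n, hn⟩ := pt_eq_int (e1.trans e2.symm)
    refine ⟨(k.val : ℤ) - (k'.val : ℤ) + 6 * n, ?_⟩
    push_cast
    linarith
  · intro c _ v h hv
    rw [← Bool.not_eq_true]
    intro h1
    obtain ⟨k, hk⟩ := ties_bit.1 h1
    obtain ⟨-, y, -, hy, -⟩ := hT _ (hne hk)
    have e1 := (hy _ (dist_pt z _)).1 (hpt hk).symm
    have hg := S.gn v h hv k
    obtain ⟨ε, hε, hev⟩ := Metric.eventually_nhds_iff.1 hg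
    set δ := min (ε / 2) 1 with hδ
    have hδ0 : 0 < δ := lt_min (by linarith) one_pos
    have hδ1 : δ ≤ 1 := min_le_right _ _
    have hδε : δ < ε := lt_of_le_of_lt (min_le_left _ _) (by linarith)
    have h2 := hev (y := v + (k.val : ℝ) + δ) (by
      rw [Real.dist_eq, add_sub_cancel_left, abs_of_pos hδ0]; exact hδε)
    have e2 := (hy _ (dist_pt z _)).1 (h2.trans (hpt hk).symm)
    obtain ⟨n, hn⟩ := pt_eq_int (e1.trans e2.symm)
    have h3 : (6 : ℝ) * n = δ := by linarith
    have h4 : (0 : ℝ) < n := by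
      by_contra hcon
      have : (6 : ℝ) * n ≤ 0 := by linarith [not_lt.1 hcon]
      linarith
    have h5 : (0 : ℤ) < n := by exact_mod_cast h4
    have h6 : (1 : ℝ) ≤ n := by exact_mod_cast (show (1 : ℤ) ≤ n by omega)
    linarith

/-- generic words of pairs are legal -/
theorem leg_of (C : Six6 U T z) (S : SelH T z H) {M : Fin 6 → Fin 6 → Prop}
    (hne : ∀ a b, M a b → a ≠ b)
    (hpair : ∀ v h, H v h → ∀ k, ∃ a b, M a b ∧ h k = {a, b})
    (hop : ∀ v h, H v h → ∀ k, OpM M (h k) (h (k + 3))) :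
    ∀ v h, H v h → Leg M h := by
  intro v h hv
  refine ⟨fun k => ?_, fun k => ?_, hop v h hv⟩
  · obtain ⟨a, b, h1, h2⟩ := hpair v h hv k
    exact ⟨a, b, hne a b h1, h1, h2⟩
  · have h1 := C.disj (u := v + (k.val : ℝ)) (S.gn v h hv k)
    have h2 := S.le v h hv (k + 1)
    rw [pt_fin] at h2
    exact h1.mono (S.le v h hv k) h2

/-- the published form -/
theorem leaf_false (C : Six6 U T z)
    (hact : ∀ i, ∃ q, dist q z = 1 ∧ i ∈ T q ∧ (T q).ncard = 2) (S : SelH T z H)
    (hpair : ∀ v h, H v h → ∀ k, ∃ a b, MC T z a b ∧ h k = {a, b})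
    (hop : ∀ v h, H v h → ∀ k, OpM (MC T z) (h k) (h (k + 3)))
    (hrot : ∀ v h, H v h → H (v + 1) (fun k => h (k + 1)))
    {D : Dat} (hB : BoxTab D) (hok : okD D = true) {f : Fin 6 → ℕ} (E : Enc D f (MC T z))
    {l : List (ℕ × Fin 3)} (hl : okL D l = true) (hm : ∀ p ∈ l, ModeP T z f p.1 p.2) : False :=
  leaf_core C hact S (leg_of C S (fun _ _ h => h.1) hpair hop) hrot hB hok E hl hm

end Vale.Agent.P032.Words6.H571
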