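import Vale.Agent.P032.Words6.H46.Code

/-!
# P032: leaves of the mode trees, definitions
-/

noncomputable section

namespace Vale.Agent.P032.Words6.H571

open Vale.Agent.P032.Words.Trie Vale.Agent.P032.Words6.H46

/-- the mode of the class named by the mask `c`: `0` the triple `c` never occurs, `1` its complement never
occurs, `2` both occur at one point only, antipodal -/
def ModeP (T : ℂ → Set (Fin 6)) (z : ℂ) (f : Fin 6 → ℕ) (c : ℕ) (m : Fin 3) : Prop :=
  ∀ X : Set (Fin 6), X.ncard = 3 → code f X = c →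
    if m = 0 then (∀ q, dist q z = 1 → T q ≠ X)
    else if m = 1 then (∀ q, dist q z = 1 → T q ≠ Xᶜ)
    else (∃ y, dist y z = 1 ∧ (∀ q, dist q z = 1 → (T q = X ↔ q = y)) ∧
      ∀ q, dist q z = 1 → (T q = Xᶜ ↔ q = 2 * z - y))

/-- three different bits -/
def tri (m : ℕ) : Bool :=
  (List.range 6).any fun a => (List.range 6).any fun b => (List.range 6).any fun c =>
    !(Nat.beq a b) && !(Nat.beq a c) && !(Nat.beq b c) && Nat.beq m (2 ^ a ||| 2 ^ b ||| 2 ^ c)

/-- two different letters inside `m` -/
def twoL (L : List ℕ) (m : ℕ) : Bool :=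
  L.any fun a => L.any fun b => !(Nat.beq a b) && Nat.beq (Nat.land a m) a && Nat.beq (Nat.land b m) b

/-- the table `D` fits the modes in the list `l` -/
def okL (D : Dat) (l : List (ℕ × Fin 3)) : Bool :=
  Nat.ble D.tie.length D.P.length && (D.tie.all fun m => Nat.blt m (2 ^ D.r)) &&
  ((List.range 64).all fun m => !(tri m) || !(twoL D.L m) || D.P.contains m ||
    l.any fun p => (decide (p.2 = 0) && Nat.beq p.1 m) ||
      (decide (p.2 = 1) && Nat.beq p.1 (Nat.xor 63 m))) &&
  ((List.range D.P.length).all fun p => Nat.beq (D.tie.getD p 0) 0 || (tri (D.P.getD p 0) &&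
    l.any fun q => decide (q.2 = 2) && Nat.beq q.1 (D.P.getD p 0)))

end Vale.Agent.P032.Words6.H571
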