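import Vale.Agent.P032.Words6.H571.LeafD
import Vale.Agent.P032.Words6.H46.Enc
import Vale.Agent.P032.Words6.H220.Md

/-!
# P032: leaves of the mode trees: the mode rules
-/

open Set Filter Topology Metric

noncomputable section

namespace Vale.Agent.P032.Words6.H571

open Vale.Agent.P032.Six Vale.Agent.P032.S5.H767 Vale.Agent.P032.Words6.H704
  Vale.Agent.P032.Words6.H46 Vale.Agent.P032.Words6.H343 Vale.Agent.P032.Words6.H503
  Vale.Agent.P032.Words6.H220 Vale.Agent.P032.Words.Trie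

variable {T : ℂ → Set (Fin 6)} {z : ℂ} {f : Fin 6 → ℕ} {D : Dat}

theorem code_triple (hi : Function.Injective f) (hl : ∀ i, f i < 6) (a b c : Fin 6) :
    code f {a, b, c} = 2 ^ f a ||| 2 ^ f b ||| 2 ^ f c := by
  have l1 : (2 : ℕ) ^ f a < 2 ^ 6 := Nat.pow_lt_pow_right (by norm_num) (hl a)
  have l2 : (2 : ℕ) ^ f b < 2 ^ 6 := Nat.pow_lt_pow_right (by norm_num) (hl b)
  have l3 : (2 : ℕ) ^ f c < 2 ^ 6 := Nat.pow_lt_pow_right (by norm_num) (hl c)
  refine ext_mask hi hl (code_lt f _) (Nat.or_lt_two_pow (Nat.or_lt_two_pow l1 l2) l3) fun i => ?_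
  rw [tb hi hl, Nat.testBit_or, Nat.testBit_or, Bool.or_eq_true, Bool.or_eq_true,
    Nat.testBit_two_pow, Nat.testBit_two_pow, Nat.testBit_two_pow, decide_eq_true_iff,
    decide_eq_true_iff, decide_eq_true_iff, Set.mem_insert_iff, Set.mem_insert_iff,
    Set.mem_singleton_iff]
  constructor
  · rintro (rfl | rfl | rfl)
    · exact Or.inl (Or.inl rfl)
    · exact Or.inl (Or.inr rfl)
    · exact Or.inr rfl
  · rintro ((h | h) | h)
    · exact Or.inl (hi h).symm
    · exact Or.inr (Or.inl (hi h).symm)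
    · exact Or.inr (Or.inr (hi h).symm)

theorem nbeq_false {a b : ℕ} : (!(Nat.beq a b)) = true ↔ a ≠ b := by
  rw [Bool.not_eq_true', ← Bool.not_eq_true, Nat.beq_eq]

theorem tri_code (hi : Function.Injective f) (hl : ∀ i, f i < 6) {X : Set (Fin 6)} :
    tri (code f X) = true ↔ X.ncard = 3 := by
  constructor
  · intro h
    unfold tri at h
    obtain ⟨a, ha, h⟩ := List.any_eq_true.1 h
    obtain ⟨b, hb, h⟩ := List.any_eq_true.1 h
    obtain ⟨c, hc, h⟩ := List.any_eq_true.1 h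
    rw [Bool.and_eq_true, Bool.and_eq_true, Bool.and_eq_true, nbeq_false, nbeq_false, nbeq_false,
      Nat.beq_eq] at h
    obtain ⟨⟨⟨h1, h2⟩, h3⟩, h4⟩ := h
    obtain ⟨x, rfl⟩ := ex_f hi hl (List.mem_range.1 ha)
    obtain ⟨y, rfl⟩ := ex_f hi hl (List.mem_range.1 hb)
    obtain ⟨w, rfl⟩ := ex_f hi hl (List.mem_range.1 hc)
    rw [← code_triple hi hl] at h4
    rw [code_inj hi hl h4]
    exact Set.ncard_eq_three.2 ⟨x, y, w, fun e => h1 (e ▸ rfl), fun e => h2 (e ▸ rfl),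
      fun e => h3 (e ▸ rfl), rfl⟩
  · intro h
    obtain ⟨x, y, w, h1, h2, h3, rfl⟩ := Set.ncard_eq_three.1 h
    rw [code_triple hi hl]
    refine List.any_eq_true.2 ⟨f x, List.mem_range.2 (hl x), List.any_eq_true.2
      ⟨f y, List.mem_range.2 (hl y), List.any_eq_true.2 ⟨f w, List.mem_range.2 (hl w), ?_⟩⟩⟩
    rw [Bool.and_eq_true, Bool.and_eq_true, Bool.and_eq_true, nbeq_false, nbeq_false, nbeq_false,
      Nat.beq_eq]
    exact ⟨⟨⟨fun e => h1 (hi e), fun e => h2 (hi e)⟩, fun e => h3 (hi e)⟩, rfl⟩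

theorem okL_tie {l : List (ℕ × Fin 3)} (hl : okL D l = true) :
    (D.tie.all fun m => Nat.blt m (2 ^ D.r)) = true := by
  unfold okL at hl
  simp only [Bool.and_eq_true] at hl
  exact hl.1.1.2

/-- a triple with two letters is a palette of `D` or does not occur -/
theorem okL_mem {M : Fin 6 → Fin 6 → Prop} (E : Enc D f M) {l : List (ℕ × Fin 3)}
    (hl : okL D l = true) (hm : ∀ p ∈ l, ModeP T z f p.1 p.2) {X : Set (Fin 6)} (h3 : X.ncard = 3)
    (hX : ∃ a b c d : Fin 6, a ≠ b ∧ c ≠ d ∧ M a b ∧ M c d ∧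
      ({a, b} : Set (Fin 6)) ≠ {c, d} ∧ ({a, b} : Set (Fin 6)) ⊆ X ∧ ({c, d} : Set (Fin 6)) ⊆ X) :
    code f X ∈ D.P ∨ ∀ q, dist q z = 1 → T q ≠ X := by
  unfold okL at hl
  simp only [Bool.and_eq_true] at hl
  have h1 := List.all_eq_true.1 hl.1.2 (code f X) (List.mem_range.2 (code_lt f X))
  have h2 : tri (code f X) = true := (tri_code E.inj E.lt).2 h3
  have h4 : twoL D.L (code f X) = true := by
    obtain ⟨a, b, c, d, hab, hcd, hM, hM', hne, hs, hs'⟩ := hX
    have m1 : code f {a, b} ∈ D.L := by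
      rw [code_pair E.inj E.lt]; exact (E.mem a b hab).1 hM
    have m2 : code f {c, d} ∈ D.L := by
      rw [code_pair E.inj E.lt]; exact (E.mem c d hcd).1 hM'
    refine List.any_eq_true.2 ⟨_, m1, List.any_eq_true.2 ⟨_, m2, ?_⟩⟩
    rw [Bool.and_eq_true, Bool.and_eq_true, nbeq_false, Nat.beq_eq, Nat.beq_eq,
      code_and E.inj E.lt, code_and E.inj E.lt, Set.inter_eq_left.2 hs, Set.inter_eq_left.2 hs']
    exact ⟨⟨fun e => hne (code_inj E.inj E.lt e), rfl⟩, rfl⟩
  rw [h2, h4, Bool.not_true, Bool.false_or, Bool.false_or, Bool.or_eq_true] at h1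
  rcases h1 with h1 | h1
  · exact Or.inl (List.contains_iff_mem.1 h1)
  · right
    obtain ⟨p, hp, h5⟩ := List.any_eq_true.1 h1
    have hmp := hm p hp
    rw [Bool.or_eq_true, Bool.and_eq_true, Bool.and_eq_true, decide_eq_true_iff, decide_eq_true_iff,
      Nat.beq_eq, Nat.beq_eq] at h5
    rcases h5 with ⟨h5, h6⟩ | ⟨h5, h6⟩
    · have h7 := hmp X h3 h6.symm
      rw [if_pos h5] at h7
      exact h7
    · have hc : (Xᶜ).ncard = 3 := by
        have := Set.ncard_add_ncard_compl X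
        rw [Nat.card_eq_fintype_card, Fintype.card_fin] at this
        omega
      have h7 := hmp Xᶜ hc (by rw [← code_compl E.inj E.lt, h6])
      rw [if_neg (by rw [h5]; decide), if_pos h5, compl_compl] at h7
      exact h7

/-- a tie palette -/
theorem okL_tieP (hi : Function.Injective f) (hlt : ∀ i, f i < 6) {l : List (ℕ × Fin 3)}
    (hl : okL D l = true) (hm : ∀ p ∈ l, ModeP T z f p.1 p.2) {X : Set (Fin 6)}
    (hX : tcode D (code f X) ≠ 0) : X.ncard = 3 ∧ TieP T z X := by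
  unfold okL at hl
  simp only [Bool.and_eq_true] at hl
  obtain ⟨⟨⟨k1, -⟩, -⟩, k2⟩ := hl
  have k1 : D.tie.length ≤ D.P.length := Nat.le_of_ble_eq_true k1
  unfold tcode at hX
  have hlen : D.P.idxOf (code f X) < D.P.length := by
    by_contra hcon
    exact hX (List.getD_eq_default _ _ (k1.trans (not_lt.1 hcon)))
  have hmem : code f X ∈ D.P := List.idxOf_lt_length_iff.1 hlen
  have h1 := List.all_eq_true.1 k2 _ (List.mem_range.2 hlen)
  rw [(idx_spec hmem).2, Bool.or_eq_true, Nat.beq_eq, Bool.and_eq_true] at h1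
  rcases h1 with h1 | ⟨h1, h2⟩
  · exact absurd h1 hX
  · have h3 := (tri_code hi hlt).1 h1
    refine ⟨h3, ?_⟩
    obtain ⟨p, hp, h5⟩ := List.any_eq_true.1 h2
    rw [Bool.and_eq_true, decide_eq_true_iff, Nat.beq_eq] at h5
    have h7 := hm p hp X h3 h5.2.symm
    rw [if_neg (by rw [h5.1]; decide), if_neg (by rw [h5.1]; decide)] at h7
    exact h7

end Vale.Agent.P032.Words6.H571
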